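/-
Helper35 — S0175 project, package TS-4: Monge approximation in the abstract two-shell setting
(statement `ts_approx`, verbatim `Crest.Agent.Helper32.Spec.ts_approx`).
-/
import Crest.Agent.Helper32.TwoShellDefs
import Crest.Agent.Helper3.TwoShell.TS0
import Crest.Agent.Helper62.TwoShell.TSB

set_option autoImplicit false
open MeasureTheory Set
open scoped ENNReal
open Crest.AnalysisR.OT
open Crest.Agent.Helper32

namespace Crest.Agent.Helper35

/-! ### generic fibre lemmas -/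

section fibre
variable {Y : Type*} [MeasurableSpace Y] (ν : Measure Y)

theorem tsΛ_lintegral (G : Y × ℝ → ℝ≥0∞) (hG : Measurable G) :
    ∫⁻ p, G p ∂(tsΛ ν) = ∫⁻ b, (∫⁻ t in Ico (0:ℝ) 1, G (b, t)) ∂ν := by
  unfold tsΛ
  exact lintegral_prod _ hG.aemeasurable

/-- `∫ f dμ` in fibre form -/
theorem ts_lintegral_fibre (GA GB : Y × ℝ → ℝ≥0∞)
    (hGA : Measurable GA) (hGB : Measurable GB) :
    ∫⁻ p, GA p ∂(tsΛ ν) + 2 * ∫⁻ p, GB p ∂(tsΛ ν) =
      ∫⁻ b, ((∫⁻ t in Ico (0:ℝ) 1, GA (b, t)) + 2 * ∫⁻ t in Ico (0:ℝ) 1, GB (b, t)) ∂ν := by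
  have hsum : Measurable (fun p => GA p + 2 * GB p) := hGA.add (hGB.const_mul _)
  have hGAb : ∀ b : Y, Measurable (fun t : ℝ => GA (b, t)) := fun b =>
    hGA.comp measurable_prodMk_left
  have hGBb : ∀ b : Y, Measurable (fun t : ℝ => GB (b, t)) := fun b =>
    hGB.comp measurable_prodMk_left
  rw [← lintegral_const_mul _ hGB, ← lintegral_add_left hGA,
    tsΛ_lintegral ν _ hsum]
  refine lintegral_congr (fun b => ?_)
  rw [lintegral_add_left (hGAb b), lintegral_const_mul _ (hGBb b)]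

end fibre

theorem fibre_split (G G1 G2 : ℝ → ℝ≥0∞) (T : Set ℝ) (hT : MeasurableSet T)
    (h1 : ∀ t ∈ Ico (0:ℝ) 1, t ∈ T → G t = G1 t)
    (h2 : ∀ t ∈ Ico (0:ℝ) 1, t ∉ T → G t = G2 t) :
    (∫⁻ t in Ico (0:ℝ) 1, G t) =
      (∫⁻ t in Ico (0:ℝ) 1 ∩ T, G1 t) + (∫⁻ t in Ico (0:ℝ) 1 \ T, G2 t) := by
  rw [← lintegral_inter_add_sdiff G (Ico (0:ℝ) 1) hT]
  congr 1
  · exact setLIntegral_congr_fun (measurableSet_Ico.inter hT) (fun t ht => h1 t ht.1 ht.2)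
  · exact setLIntegral_congr_fun (measurableSet_Ico.diff hT) (fun t ht => h2 t ht.1 ht.2)

theorem fibre_split_le (G G1 G2 : ℝ → ℝ≥0∞) (T : Set ℝ) (hT : MeasurableSet T)
    (h1 : ∀ t ∈ Ico (0:ℝ) 1, t ∈ T → G t ≤ G1 t)
    (h2 : ∀ t ∈ Ico (0:ℝ) 1, t ∉ T → G t ≤ G2 t) :
    (∫⁻ t in Ico (0:ℝ) 1, G t) ≤
      (∫⁻ t in Ico (0:ℝ) 1 ∩ T, G1 t) + (∫⁻ t in Ico (0:ℝ) 1 \ T, G2 t) := by
  rw [← lintegral_inter_add_sdiff G (Ico (0:ℝ) 1) hT]
  refine add_le_add ?_ ?_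
  · exact setLIntegral_mono' (measurableSet_Ico.inter hT) (fun t ht => h1 t ht.1 ht.2)
  · exact setLIntegral_mono' (measurableSet_Ico.diff hT) (fun t ht => h2 t ht.1 ht.2)

/-! ### consequences of the arc identities (TS-0) -/

section arcs
variable (N : ℕ) (F : ℝ → ℝ≥0∞)

/-- the union of the first half arcs is invariant under rotations by multiples of `1/N` -/
theorem arc_T1_shift (hN : 0 < N) (hF : Measurable F) (hper : ∀ t, F (t + 1) = F t) (j : ℤ) :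
    (∫⁻ t in Ico (0:ℝ) 1 ∩ arcT1 N, F (t + (j:ℝ) / N)) =
      ∫⁻ t in Ico (0:ℝ) 1 ∩ arcT1 N, F t := by
  have h1 := Crest.Agent.Helper3.arc_half_bwd N (fun t => F (t + (j:ℝ) / N)) hN
    (hF.comp (measurable_id.add_const _))
    (fun t => by
      have : t + 1 + (j:ℝ) / N = t + (j:ℝ) / N + 1 := by ring
      simp only [this, hper]) 0
  have h2 := Crest.Agent.Helper3.arc_half_bwd N F hN hF hper j
  rw [← h1, ← h2]
  refine lintegral_congr (fun t => ?_)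
  congr 1
  push_cast
  ring

theorem fib2 (hN : 0 < N) (FA FB : ℝ → ℝ≥0∞) (hFA : Measurable FA) (hFB : Measurable FB)
    (perA : ∀ t, FA (t + 1) = FA t) (perB : ∀ t, FB (t + 1) = FB t) (j : ℤ) :
    (∫⁻ t in Ico (0:ℝ) 1, FB (arcC2 N t)) +
      2 * ((∫⁻ t in Ico (0:ℝ) 1 ∩ arcT1 N, FA (arcD N t)) +
        (∫⁻ t in Ico (0:ℝ) 1 \ arcT1 N, FB (t + (-(1 / (2 * (N:ℝ))) + (j:ℝ) / N)))) =
    (∫⁻ t in Ico (0:ℝ) 1, FA t) + 2 * ∫⁻ t in Ico (0:ℝ) 1, FB t := by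
  rw [Crest.Agent.Helper3.arc_C2 N FB hN hFB perB, mul_add, Crest.Agent.Helper3.arc_D1 N FA hN hFA perA,
    Crest.Agent.Helper3.arc_half_bwd N FB hN hFB perB j,
    ← lintegral_inter_add_sdiff FB (Ico (0:ℝ) 1) (Crest.Agent.Helper3.measurableSet_arcT1 N)]
  ring

theorem fib3 (hN : 0 < N) (FA FB : ℝ → ℝ≥0∞) (hFA : Measurable FA) (hFB : Measurable FB)
    (perA : ∀ t, FA (t + 1) = FA t) (perB : ∀ t, FB (t + 1) = FB t) (j : ℤ) :
    (∫⁻ t in Ico (0:ℝ) 1, FB (arcC1 N t + (j:ℝ) / N)) +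
      2 * ((∫⁻ t in Ico (0:ℝ) 1 ∩ arcT1 N, FB (t + (1 / (2 * (N:ℝ)) + (j:ℝ) / N))) +
        (∫⁻ t in Ico (0:ℝ) 1 \ arcT1 N, FA (arcD N t + -((j:ℝ) / N)))) =
    (∫⁻ t in Ico (0:ℝ) 1, FA t) + 2 * ∫⁻ t in Ico (0:ℝ) 1, FB t := by
  have hFB' : Measurable (fun t => FB (t + (j:ℝ) / N)) := hFB.comp (measurable_id.add_const _)
  have perB' : ∀ t, FB (t + 1 + (j:ℝ) / N) = FB (t + (j:ℝ) / N) := fun t => by
    have : t + 1 + (j:ℝ) / N = t + (j:ℝ) / N + 1 := by ring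
    rw [this, perB]
  have hFA' : Measurable (fun t => FA (t + -((j:ℝ) / N))) :=
    hFA.comp (measurable_id.add_const _)
  have perA' : ∀ t, FA (t + 1 + -((j:ℝ) / N)) = FA (t + -((j:ℝ) / N)) := fun t => by
    have : t + 1 + -((j:ℝ) / N) = t + -((j:ℝ) / N) + 1 := by ring
    rw [this, perA]
  have e1 : (∫⁻ t in Ico (0:ℝ) 1, FB (arcC1 N t + (j:ℝ) / N)) =
      2 * ∫⁻ t in Ico (0:ℝ) 1 ∩ arcT1 N, FB t := by
    rw [Crest.Agent.Helper3.arc_C1 N (fun t => FB (t + (j:ℝ) / N)) hN hFB' perB',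
      arc_T1_shift N FB hN hFB perB j]
  have e2 : 2 * (∫⁻ t in Ico (0:ℝ) 1 \ arcT1 N, FA (arcD N t + -((j:ℝ) / N))) =
      ∫⁻ t in Ico (0:ℝ) 1, FA t := by
    rw [Crest.Agent.Helper3.arc_D2 N (fun t => FA (t + -((j:ℝ) / N))) hN hFA' perA',
      Crest.Agent.Helper3.arc_shift FA hFA perA]
  rw [e1, mul_add, e2, Crest.Agent.Helper3.arc_half_fwd N FB hN hFB perB j,
    ← lintegral_inter_add_sdiff FB (Ico (0:ℝ) 1) (Crest.Agent.Helper3.measurableSet_arcT1 N)]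
  ring

end arcs

/-! ### the two Monge maps -/

section maps
variable {E Y : Type*} (N : ℕ) (ΦA ΦB : Y × ℝ → E) (g : Y → ℝ) (iA iB : E → Y × ℝ)

/-- the integer `m(b) = ⌊N g(b)⌋` -/
noncomputable def mInt (b : Y) : ℤ := ⌊(N:ℝ) * g b⌋

open Classical in
/-- second Monge map -/
noncomputable def T2map (x : E) : E :=
  if x ∈ range ΦA then ΦB ((iA x).1, arcC2 N (iA x).2)
  else if x ∈ range ΦB then
    (if (iB x).2 ∈ arcT1 N then ΦA ((iB x).1, arcD N (iB x).2)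
     else ΦB ((iB x).1,
       (iB x).2 + (-(1 / (2 * (N:ℝ))) + ((-mInt N g (iB x).1 : ℤ) : ℝ) / N)))
  else x

open Classical in
/-- third Monge map -/
noncomputable def T3map (x : E) : E :=
  if x ∈ range ΦA then ΦB ((iA x).1, arcC1 N (iA x).2 + ((mInt N g (iA x).1 : ℤ) : ℝ) / N)
  else if x ∈ range ΦB then
    (if (iB x).2 ∈ arcT1 N then
       ΦB ((iB x).1, (iB x).2 + (1 / (2 * (N:ℝ)) + ((mInt N g (iB x).1 : ℤ) : ℝ) / N))
     else ΦA ((iB x).1, arcD N (iB x).2 + -(((mInt N g (iB x).1 : ℤ) : ℝ) / N)))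
  else x

variable {N ΦA ΦB g iA iB}

theorem not_mem_rangeA (hdisj : ∀ p q, ΦA p ≠ ΦB q) (q : Y × ℝ) : ΦB q ∉ range ΦA := by
  rintro ⟨p, hp⟩
  exact hdisj p q hp

section eval
variable (hinvA : ∀ b t, t ∈ Ico (0:ℝ) 1 → iA (ΦA (b, t)) = (b, t))
  (hinvB : ∀ b t, t ∈ Ico (0:ℝ) 1 → iB (ΦB (b, t)) = (b, t))
  (hdisj : ∀ p q, ΦA p ≠ ΦB q)
include hinvA

theorem T2map_A (b : Y) (t : ℝ) (ht : t ∈ Ico (0:ℝ) 1) :
    T2map N ΦA ΦB g iA iB (ΦA (b, t)) = ΦB (b, arcC2 N t) := by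
  simp [T2map, hinvA b t ht]

theorem T3map_A (b : Y) (t : ℝ) (ht : t ∈ Ico (0:ℝ) 1) :
    T3map N ΦA ΦB g iA iB (ΦA (b, t)) = ΦB (b, arcC1 N t + ((mInt N g b : ℤ) : ℝ) / N) := by
  simp [T3map, hinvA b t ht]

omit hinvA
include hinvB hdisj

theorem T2map_B1 (b : Y) (t : ℝ) (ht : t ∈ Ico (0:ℝ) 1) (h1 : t ∈ arcT1 N) :
    T2map N ΦA ΦB g iA iB (ΦB (b, t)) = ΦA (b, arcD N t) := by
  have hn : ΦB (b, t) ∉ range ΦA := not_mem_rangeA hdisj (b, t)
  simp [T2map, hn, hinvB b t ht, h1]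

theorem T2map_B2 (b : Y) (t : ℝ) (ht : t ∈ Ico (0:ℝ) 1) (h1 : t ∉ arcT1 N) :
    T2map N ΦA ΦB g iA iB (ΦB (b, t)) =
      ΦB (b, t + (-(1 / (2 * (N:ℝ))) + ((-mInt N g b : ℤ) : ℝ) / N)) := by
  have hn : ΦB (b, t) ∉ range ΦA := not_mem_rangeA hdisj (b, t)
  simp [T2map, hn, hinvB b t ht, h1]

theorem T3map_B1 (b : Y) (t : ℝ) (ht : t ∈ Ico (0:ℝ) 1) (h1 : t ∈ arcT1 N) :
    T3map N ΦA ΦB g iA iB (ΦB (b, t)) =
      ΦB (b, t + (1 / (2 * (N:ℝ)) + ((mInt N g b : ℤ) : ℝ) / N)) := by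
  have hn : ΦB (b, t) ∉ range ΦA := not_mem_rangeA hdisj (b, t)
  simp [T3map, hn, hinvB b t ht, h1]

theorem T3map_B2 (b : Y) (t : ℝ) (ht : t ∈ Ico (0:ℝ) 1) (h1 : t ∉ arcT1 N) :
    T3map N ΦA ΦB g iA iB (ΦB (b, t)) =
      ΦA (b, arcD N t + -(((mInt N g b : ℤ) : ℝ) / N)) := by
  have hn : ΦB (b, t) ∉ range ΦA := not_mem_rangeA hdisj (b, t)
  simp [T3map, hn, hinvB b t ht, h1]

end eval

section meas
variable [MeasurableSpace E] [MeasurableSpace Y]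

theorem measurable_mInt' (hg : Measurable g) : Measurable (fun b => mInt N g b) := by
  unfold mInt
  exact Int.measurable_floor.comp (measurable_const.mul hg)

theorem measurable_mInt (hg : Measurable g) : Measurable (fun b => ((mInt N g b : ℤ) : ℝ)) :=
  (Measurable.of_discrete (f := fun z : ℤ => (z : ℝ))).comp (measurable_mInt' hg)

theorem measurable_T2map (hA : Measurable ΦA) (hB : Measurable ΦB) (hg : Measurable g)
    (hiA : Measurable iA) (hiB : Measurable iB) (hRA : MeasurableSet (range ΦA))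
    (hRB : MeasurableSet (range ΦB)) : Measurable (T2map N ΦA ΦB g iA iB) := by
  classical
  unfold T2map
  have hmI : Measurable (fun b => ((-mInt N g b : ℤ) : ℝ)) :=
    (Measurable.of_discrete (f := fun z : ℤ => ((-z : ℤ) : ℝ))).comp (measurable_mInt' hg)
  refine Measurable.ite hRA ?_ (Measurable.ite hRB (Measurable.ite ?_ ?_ ?_) measurable_id)
  · exact hB.comp ((measurable_fst.comp hiA).prodMk
      ((Crest.Agent.Helper3.measurable_arcC2 N).comp (measurable_snd.comp hiA)))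
  · exact (Crest.Agent.Helper3.measurableSet_arcT1 N).preimage (measurable_snd.comp hiB)
  · exact hA.comp ((measurable_fst.comp hiB).prodMk
      ((Crest.Agent.Helper3.measurable_arcD N).comp (measurable_snd.comp hiB)))
  · refine hB.comp ((measurable_fst.comp hiB).prodMk ?_)
    exact (measurable_snd.comp hiB).add
      (measurable_const.add ((hmI.comp (measurable_fst.comp hiB)).div_const _))

theorem measurable_T3map (hA : Measurable ΦA) (hB : Measurable ΦB) (hg : Measurable g)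
    (hiA : Measurable iA) (hiB : Measurable iB) (hRA : MeasurableSet (range ΦA))
    (hRB : MeasurableSet (range ΦB)) : Measurable (T3map N ΦA ΦB g iA iB) := by
  classical
  unfold T3map
  have hmI : Measurable (fun b => ((mInt N g b : ℤ) : ℝ)) := measurable_mInt (N := N) hg
  refine Measurable.ite hRA ?_ (Measurable.ite hRB (Measurable.ite ?_ ?_ ?_) measurable_id)
  · refine hB.comp ((measurable_fst.comp hiA).prodMk ?_)
    exact ((Crest.Agent.Helper3.measurable_arcC1 N).comp (measurable_snd.comp hiA)).add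
      ((hmI.comp (measurable_fst.comp hiA)).div_const _)
  · exact (Crest.Agent.Helper3.measurableSet_arcT1 N).preimage (measurable_snd.comp hiB)
  · refine hB.comp ((measurable_fst.comp hiB).prodMk ?_)
    exact (measurable_snd.comp hiB).add
      (measurable_const.add ((hmI.comp (measurable_fst.comp hiB)).div_const _))
  · refine hA.comp ((measurable_fst.comp hiB).prodMk ?_)
    exact ((Crest.Agent.Helper3.measurable_arcD N).comp (measurable_snd.comp hiB)).add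
      ((hmI.comp (measurable_fst.comp hiB)).div_const _).neg

end meas

end maps

/-! ### the maps preserve the two-shell marginal -/

/-- a measurable self-map preserving all `lintegral`s preserves the measure -/
theorem map_eq_of_lintegral {E : Type*} [MeasurableSpace E] {μ : Measure E} (T : E → E) (hT : Measurable T)
    (hpush : ∀ f : E → ℝ≥0∞, Measurable f → ∫⁻ x, f (T x) ∂μ = ∫⁻ x, f x ∂μ) :
    μ.map T = μ := by
  ext W hW
  rw [Measure.map_apply hT hW]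
  have := hpush (W.indicator 1) (measurable_one.indicator hW)
  rw [lintegral_indicator_one hW] at this
  rw [← this, ← lintegral_indicator_one (hT hW)]
  rfl

section push
variable {E Y : Type*} [MeasurableSpace E] [StandardBorelSpace E] [MeasurableSpace Y]
  [StandardBorelSpace Y] (ν : Measure Y) [IsFiniteMeasure ν] (ΦA ΦB : Y × ℝ → E) (g : Y → ℝ)
  (c : E × E × E → ℝ≥0∞) (u : E → ℝ)

variable {ν ΦA ΦB g c u}

variable (N : ℕ) (iA iB : E → Y × ℝ)

theorem T2map_push (h : TwoShellHyp ν ΦA ΦB g c u) (hN : 0 < N)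
    (hinvA : ∀ b t, t ∈ Ico (0:ℝ) 1 → iA (ΦA (b, t)) = (b, t))
    (hinvB : ∀ b t, t ∈ Ico (0:ℝ) 1 → iB (ΦB (b, t)) = (b, t))
    (hT : Measurable (T2map N ΦA ΦB g iA iB))
    (f : E → ℝ≥0∞) (hf : Measurable f) :
    ∫⁻ x, f (T2map N ΦA ΦB g iA iB x) ∂(tsμ ν ΦA ΦB) = ∫⁻ x, f x ∂(tsμ ν ΦA ΦB) := by
  have hm0 : Measurable (fun x => f (T2map N ΦA ΦB g iA iB x)) := hf.comp hT
  have hm1 : Measurable (fun p => f (T2map N ΦA ΦB g iA iB (ΦA p))) := hm0.comp h.measA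
  have hm2 : Measurable (fun p => f (T2map N ΦA ΦB g iA iB (ΦB p))) := hm0.comp h.measB
  have hm3 : Measurable (fun p => f (ΦA p)) := hf.comp h.measA
  have hm4 : Measurable (fun p => f (ΦB p)) := hf.comp h.measB
  rw [Crest.Agent.Helper62.ts_lintegral ν ΦA ΦB h.measA h.measB _ hm0,
    Crest.Agent.Helper62.ts_lintegral ν ΦA ΦB h.measA h.measB f hf,
    ts_lintegral_fibre ν _ _ hm1 hm2,
    ts_lintegral_fibre ν _ _ hm3 hm4]
  refine lintegral_congr (fun b => ?_)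
  have hFA : Measurable (fun t => f (ΦA (b, t))) := hf.comp (h.measA.comp measurable_prodMk_left)
  have hFB : Measurable (fun t => f (ΦB (b, t))) := hf.comp (h.measB.comp measurable_prodMk_left)
  have e1 : (∫⁻ t in Ico (0:ℝ) 1, f (T2map N ΦA ΦB g iA iB (ΦA (b, t)))) =
      ∫⁻ t in Ico (0:ℝ) 1, f (ΦB (b, arcC2 N t)) :=
    setLIntegral_congr_fun measurableSet_Ico (fun t ht => by
      simp only [T2map_A hinvA b t ht])
  have e2 := fibre_split (fun t => f (T2map N ΦA ΦB g iA iB (ΦB (b, t))))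
    (fun t => f (ΦA (b, arcD N t)))
    (fun t => f (ΦB (b, t + (-(1 / (2 * (N:ℝ))) + ((-mInt N g b : ℤ) : ℝ) / N))))
    (arcT1 N) (Crest.Agent.Helper3.measurableSet_arcT1 N)
    (fun t ht h1 => by simp only [T2map_B1 hinvB h.disj b t ht h1])
    (fun t ht h1 => by simp only [T2map_B2 hinvB h.disj b t ht h1])
  rw [e1, e2]
  exact fib2 N hN (fun t => f (ΦA (b, t))) (fun t => f (ΦB (b, t))) hFA hFB
    (fun t => by simp only [h.perA]) (fun t => by simp only [h.perB]) (-mInt N g b)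

theorem T3map_push (h : TwoShellHyp ν ΦA ΦB g c u) (hN : 0 < N)
    (hinvA : ∀ b t, t ∈ Ico (0:ℝ) 1 → iA (ΦA (b, t)) = (b, t))
    (hinvB : ∀ b t, t ∈ Ico (0:ℝ) 1 → iB (ΦB (b, t)) = (b, t))
    (hT : Measurable (T3map N ΦA ΦB g iA iB))
    (f : E → ℝ≥0∞) (hf : Measurable f) :
    ∫⁻ x, f (T3map N ΦA ΦB g iA iB x) ∂(tsμ ν ΦA ΦB) = ∫⁻ x, f x ∂(tsμ ν ΦA ΦB) := by
  have hm0 : Measurable (fun x => f (T3map N ΦA ΦB g iA iB x)) := hf.comp hT
  have hm1 : Measurable (fun p => f (T3map N ΦA ΦB g iA iB (ΦA p))) := hm0.comp h.measA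
  have hm2 : Measurable (fun p => f (T3map N ΦA ΦB g iA iB (ΦB p))) := hm0.comp h.measB
  have hm3 : Measurable (fun p => f (ΦA p)) := hf.comp h.measA
  have hm4 : Measurable (fun p => f (ΦB p)) := hf.comp h.measB
  rw [Crest.Agent.Helper62.ts_lintegral ν ΦA ΦB h.measA h.measB _ hm0,
    Crest.Agent.Helper62.ts_lintegral ν ΦA ΦB h.measA h.measB f hf,
    ts_lintegral_fibre ν _ _ hm1 hm2,
    ts_lintegral_fibre ν _ _ hm3 hm4]
  refine lintegral_congr (fun b => ?_)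
  have hFA : Measurable (fun t => f (ΦA (b, t))) := hf.comp (h.measA.comp measurable_prodMk_left)
  have hFB : Measurable (fun t => f (ΦB (b, t))) := hf.comp (h.measB.comp measurable_prodMk_left)
  have e1 : (∫⁻ t in Ico (0:ℝ) 1, f (T3map N ΦA ΦB g iA iB (ΦA (b, t)))) =
      ∫⁻ t in Ico (0:ℝ) 1, f (ΦB (b, arcC1 N t + ((mInt N g b : ℤ) : ℝ) / N)) :=
    setLIntegral_congr_fun measurableSet_Ico (fun t ht => by
      simp only [T3map_A hinvA b t ht])
  have e2 := fibre_split (fun t => f (T3map N ΦA ΦB g iA iB (ΦB (b, t))))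
    (fun t => f (ΦB (b, t + (1 / (2 * (N:ℝ)) + ((mInt N g b : ℤ) : ℝ) / N))))
    (fun t => f (ΦA (b, arcD N t + -(((mInt N g b : ℤ) : ℝ) / N))))
    (arcT1 N) (Crest.Agent.Helper3.measurableSet_arcT1 N)
    (fun t ht h1 => by simp only [T3map_B1 hinvB h.disj b t ht h1])
    (fun t ht h1 => by simp only [T3map_B2 hinvB h.disj b t ht h1])
  rw [e1, e2]
  exact fib3 N hN (fun t => f (ΦA (b, t))) (fun t => f (ΦB (b, t))) hFA hFB
    (fun t => by simp only [h.perA]) (fun t => by simp only [h.perB]) (mInt N g b)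

end push

/-! ### the contact value and the optimal value -/

section value
variable {E Y : Type*} [MeasurableSpace E] [StandardBorelSpace E] [MeasurableSpace Y]
  [StandardBorelSpace Y] {ν : Measure Y} [IsFiniteMeasure ν] {ΦA ΦB : Y × ℝ → E} {g : Y → ℝ}
  {c : E × E × E → ℝ≥0∞} {u : E → ℝ}

/-- the contact value of the triangle `(b, t)` -/
noncomputable def kap (ΦA ΦB : Y × ℝ → E) (g : Y → ℝ) (u : E → ℝ) (p : Y × ℝ) : ℝ :=
  u (ΦA p) + u (ΦB p) + u (ΦB (p.1, p.2 + g p.1))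

omit [MeasurableSpace E] [StandardBorelSpace E] [StandardBorelSpace Y] in
theorem measurable_rot (hg : Measurable g) :
    Measurable (fun p : Y × ℝ => (p.1, p.2 + g p.1)) :=
  measurable_fst.prodMk (measurable_snd.add (hg.comp measurable_fst))

omit [StandardBorelSpace E] [StandardBorelSpace Y] [IsFiniteMeasure ν] in
theorem measurable_kap (h : TwoShellHyp ν ΦA ΦB g c u) : Measurable (kap ΦA ΦB g u) := by
  unfold kap
  exact ((h.measu.comp h.measA).add (h.measu.comp h.measB)).add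
    (h.measu.comp (h.measB.comp (measurable_rot h.measg)))

omit [StandardBorelSpace E] [StandardBorelSpace Y] [IsFiniteMeasure ν] in
theorem kap_per (h : TwoShellHyp ν ΦA ΦB g c u) (b : Y) (t : ℝ) :
    kap ΦA ΦB g u (b, t + 1) = kap ΦA ΦB g u (b, t) := by
  unfold kap
  have e : t + 1 + g b = t + g b + 1 := by ring
  simp only [h.perA, h.perB, e]

omit [StandardBorelSpace E] [StandardBorelSpace Y] [IsFiniteMeasure ν] in
theorem kap_nonneg (h : TwoShellHyp ν ΦA ΦB g c u) (p : Y × ℝ) : 0 ≤ kap ΦA ΦB g u p :=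
  h.contact_nonneg p.1 p.2

omit [StandardBorelSpace E] [StandardBorelSpace Y] [IsFiniteMeasure ν] in
theorem contact_kap (h : TwoShellHyp ν ΦA ΦB g c u) (b : Y) (t : ℝ) :
    c (ΦA (b, t), ΦB (b, t), ΦB (b, t + g b)) = ENNReal.ofReal (kap ΦA ΦB g u (b, t)) :=
  h.contact b t

instance isFiniteMeasure_tsΛ : IsFiniteMeasure (tsΛ ν) := by
  unfold tsΛ; infer_instance

/-- real-valued fibrewise rotation invariance -/
theorem ts_rot_real (F : Y × ℝ → ℝ) (hF : Measurable F) (M : ℝ) (hM : ∀ p, |F p| ≤ M)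
    (hper : ∀ b t, F (b, t + 1) = F (b, t)) (a : Y → ℝ) (ha : Measurable a) :
    ∫ p, F (p.1, p.2 + a p.1) ∂(tsΛ ν) = ∫ p, F p ∂(tsΛ ν) := by
  have hrot : Measurable (fun p : Y × ℝ => (p.1, p.2 + a p.1)) := measurable_rot ha
  have hi1 : Integrable F (tsΛ ν) :=
    Integrable.of_bound hF.aestronglyMeasurable M (Filter.Eventually.of_forall hM)
  have hi2 : Integrable (fun p : Y × ℝ => F (p.1, p.2 + a p.1)) (tsΛ ν) :=
    Integrable.of_bound (hF.comp hrot).aestronglyMeasurable M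
      (Filter.Eventually.of_forall (fun p => hM _))
  rw [integral_eq_lintegral_pos_part_sub_lintegral_neg_part hi1,
    integral_eq_lintegral_pos_part_sub_lintegral_neg_part hi2]
  have e1 := Crest.Agent.Helper62.ts_rot ν (fun p => ENNReal.ofReal (F p)) hF.ennreal_ofReal
    (fun b t => by simp only [hper]) a ha
  have e2 := Crest.Agent.Helper62.ts_rot ν (fun p => ENNReal.ofReal (-F p)) hF.neg.ennreal_ofReal
    (fun b t => by simp only [hper]) a ha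
  rw [e1, e2]

omit [StandardBorelSpace E] in
/-- `3 ∫ ofReal κ dΛ` is the optimal value -/
theorem three_lintegral_kap (h : TwoShellHyp ν ΦA ΦB g c u) :
    3 * ∫⁻ p, ENNReal.ofReal (kap ΦA ΦB g u p) ∂(tsΛ ν) = tsVal ν ΦA ΦB u := by
  obtain ⟨M, hM⟩ := h.bddu
  have hmA : Measurable (fun p => u (ΦA p)) := h.measu.comp h.measA
  have hmB : Measurable (fun p => u (ΦB p)) := h.measu.comp h.measB
  have hmR : Measurable (fun p : Y × ℝ => u (ΦB (p.1, p.2 + g p.1))) :=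
    hmB.comp (measurable_rot h.measg)
  have hiA : Integrable (fun p => u (ΦA p)) (tsΛ ν) :=
    Integrable.of_bound hmA.aestronglyMeasurable M (Filter.Eventually.of_forall (fun p => (hM p).1))
  have hiB : Integrable (fun p => u (ΦB p)) (tsΛ ν) :=
    Integrable.of_bound hmB.aestronglyMeasurable M (Filter.Eventually.of_forall (fun p => (hM p).2))
  have hiR : Integrable (fun p : Y × ℝ => u (ΦB (p.1, p.2 + g p.1))) (tsΛ ν) :=
    Integrable.of_bound hmR.aestronglyMeasurable M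
      (Filter.Eventually.of_forall (fun p => (hM _).2))
  have hrot : ∫ p, u (ΦB (p.1, p.2 + g p.1)) ∂(tsΛ ν) = ∫ p, u (ΦB p) ∂(tsΛ ν) :=
    ts_rot_real (fun p => u (ΦB p)) hmB M (fun p => (hM p).2)
      (fun b t => by simp only [h.perB]) g h.measg
  have hkap : ∫ p, kap ΦA ΦB g u p ∂(tsΛ ν) =
      ∫ p, u (ΦA p) ∂(tsΛ ν) + 2 * ∫ p, u (ΦB p) ∂(tsΛ ν) := by
    have hiAB : Integrable (fun p => u (ΦA p) + u (ΦB p)) (tsΛ ν) := hiA.add hiB
    unfold kap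
    rw [integral_add hiAB hiR, integral_add hiA hiB, hrot]
    ring
  have huA : Integrable u ((tsΛ ν).map ΦA) :=
    (integrable_map_measure h.measu.aestronglyMeasurable h.measA.aemeasurable).2 hiA
  have huB : Integrable u ((tsΛ ν).map ΦB) :=
    (integrable_map_measure h.measu.aestronglyMeasurable h.measB.aemeasurable).2 hiB
  have hμ : ∫ x, u x ∂(tsμ ν ΦA ΦB) =
      ∫ p, u (ΦA p) ∂(tsΛ ν) + 2 * ∫ p, u (ΦB p) ∂(tsΛ ν) := by
    unfold tsμ
    rw [integral_add_measure huA (huB.smul_measure (by norm_num)), integral_smul_measure,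
      integral_map h.measA.aemeasurable h.measu.aestronglyMeasurable,
      integral_map h.measB.aemeasurable h.measu.aestronglyMeasurable]
    simp
  have hint : Integrable (kap ΦA ΦB g u) (tsΛ ν) := by
    have hiAB : Integrable (fun p => u (ΦA p) + u (ΦB p)) (tsΛ ν) := hiA.add hiB
    have : Integrable (fun p : Y × ℝ => u (ΦA p) + u (ΦB p) + u (ΦB (p.1, p.2 + g p.1))) (tsΛ ν) :=
      hiAB.add hiR
    exact this
  unfold tsVal
  rw [hμ, ← hkap, ENNReal.ofReal_mul (by norm_num : (0:ℝ) ≤ 3),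
    ofReal_integral_eq_lintegral_ofReal hint (Filter.Eventually.of_forall (kap_nonneg h))]
  simp

end value

/-! ### the cost of the Monge plan -/

section cost
variable {E Y : Type*} [MeasurableSpace E] [StandardBorelSpace E] [MeasurableSpace Y]
  [StandardBorelSpace Y] {ν : Measure Y} [IsFiniteMeasure ν] {ΦA ΦB : Y × ℝ → E} {g : Y → ℝ}
  {c : E × E × E → ℝ≥0∞} {u : E → ℝ}

omit [MeasurableSpace E] [StandardBorelSpace E] [MeasurableSpace Y] [StandardBorelSpace Y] in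
theorem mInt_close (N : ℕ) (hN : 0 < N) (g : Y → ℝ) (b : Y) :
    |((mInt N g b : ℤ) : ℝ) / N - g b| ≤ 1 / N := by
  have hNr : (0:ℝ) < N := by exact_mod_cast hN
  unfold mInt
  have h1 := Int.floor_le ((N:ℝ) * g b)
  have h2 := Int.lt_floor_add_one ((N:ℝ) * g b)
  have e : ((⌊(N:ℝ) * g b⌋ : ℤ) : ℝ) / N - g b = (((⌊(N:ℝ) * g b⌋ : ℤ) : ℝ) - N * g b) / N := by
    field_simp
  rw [e, abs_le]
  constructor
  · rw [neg_le_iff_add_nonneg, ← add_div]
    apply div_nonneg _ hNr.le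
    linarith
  · apply div_le_div_of_nonneg_right _ hNr.le
    linarith

omit [StandardBorelSpace E] [StandardBorelSpace Y] [IsFiniteMeasure ν] in
theorem swap13 (h : TwoShellHyp ν ΦA ΦB g c u) (x y z : E) : c (z, y, x) = c (x, y, z) := by
  rw [h.symm12 y z x, h.symm23 y x z, h.symm12 x y z]

variable (N : ℕ) (iA iB : E → Y × ℝ) (η ε : ℝ)

omit [StandardBorelSpace E] [StandardBorelSpace Y] [IsFiniteMeasure ν] in
theorem cost_A (h : TwoShellHyp ν ΦA ΦB g c u) (hN : 0 < N) (hη : 3 / (N:ℝ) ≤ η)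
    (hcont : ∀ b t t₁ t₂, |t₁ - t| ≤ η → |t₂ - (t + g b)| ≤ η →
      c (ΦA (b, t), ΦB (b, t₁), ΦB (b, t₂)) ≤
        c (ΦA (b, t), ΦB (b, t), ΦB (b, t + g b)) + ENNReal.ofReal ε)
    (hinvA : ∀ b t, t ∈ Ico (0:ℝ) 1 → iA (ΦA (b, t)) = (b, t))
    (b : Y) (t : ℝ) (ht : t ∈ Ico (0:ℝ) 1) :
    c (ΦA (b, t), T2map N ΦA ΦB g iA iB (ΦA (b, t)), T3map N ΦA ΦB g iA iB (ΦA (b, t))) ≤
      ENNReal.ofReal (kap ΦA ΦB g u (b, t)) + ENNReal.ofReal ε := by
  have hNr : (0:ℝ) < N := by exact_mod_cast hN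
  have h1N : 1 / (N:ℝ) = 3 / (N:ℝ) / 3 := by ring
  rw [T2map_A hinvA b t ht, T3map_A hinvA b t ht, ← contact_kap h b t]
  have a1 := Crest.Agent.Helper3.abs_arcC2_sub_le N hN t
  have a2 := Crest.Agent.Helper3.abs_arcC1_sub_le N hN t
  have a3 := mInt_close N hN g b
  have hpos : 0 < 3 / (N:ℝ) := by positivity
  rw [abs_le] at a1 a2 a3
  refine hcont b t _ _ ?_ ?_
  · rw [abs_le]; constructor <;> linarith [a1.1, a1.2]
  · rw [abs_le]; constructor <;> linarith [a2.1, a2.2, a3.1, a3.2]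

omit [StandardBorelSpace E] [StandardBorelSpace Y] [IsFiniteMeasure ν] in
theorem cost_B1 (h : TwoShellHyp ν ΦA ΦB g c u) (hN : 0 < N) (hη : 3 / (N:ℝ) ≤ η)
    (hcont : ∀ b t t₁ t₂, |t₁ - t| ≤ η → |t₂ - (t + g b)| ≤ η →
      c (ΦA (b, t), ΦB (b, t₁), ΦB (b, t₂)) ≤
        c (ΦA (b, t), ΦB (b, t), ΦB (b, t + g b)) + ENNReal.ofReal ε)
    (hinvB : ∀ b t, t ∈ Ico (0:ℝ) 1 → iB (ΦB (b, t)) = (b, t))
    (b : Y) (t : ℝ) (ht : t ∈ Ico (0:ℝ) 1) (h1 : t ∈ arcT1 N) :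
    c (ΦB (b, t), T2map N ΦA ΦB g iA iB (ΦB (b, t)), T3map N ΦA ΦB g iA iB (ΦB (b, t))) ≤
      ENNReal.ofReal (kap ΦA ΦB g u (b, arcD N t)) + ENNReal.ofReal ε := by
  have hNr : (0:ℝ) < N := by exact_mod_cast hN
  rw [T2map_B1 hinvB h.disj b t ht h1, T3map_B1 hinvB h.disj b t ht h1, h.symm12,
    ← contact_kap h b (arcD N t)]
  have a1 := Crest.Agent.Helper3.abs_arcD_sub_le N hN t
  have a3 := mInt_close N hN g b
  have e2 : 1 / (2 * (N:ℝ)) = 1 / (N:ℝ) / 2 := by ring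
  have e3 : 3 / (N:ℝ) = 3 * (1 / (N:ℝ)) := by ring
  have hpos : 0 < 1 / (N:ℝ) := by positivity
  rw [abs_le] at a1 a3
  refine hcont b (arcD N t) _ _ ?_ ?_
  · rw [abs_le]; constructor <;> linarith [a1.1, a1.2]
  · rw [abs_le, e2]; constructor <;> linarith [a1.1, a1.2, a3.1, a3.2]

omit [StandardBorelSpace E] [StandardBorelSpace Y] [IsFiniteMeasure ν] in
theorem cost_B2 (h : TwoShellHyp ν ΦA ΦB g c u) (hN : 0 < N) (hη : 3 / (N:ℝ) ≤ η)
    (hcont : ∀ b t t₁ t₂, |t₁ - t| ≤ η → |t₂ - (t + g b)| ≤ η →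
      c (ΦA (b, t), ΦB (b, t₁), ΦB (b, t₂)) ≤
        c (ΦA (b, t), ΦB (b, t), ΦB (b, t + g b)) + ENNReal.ofReal ε)
    (hinvB : ∀ b t, t ∈ Ico (0:ℝ) 1 → iB (ΦB (b, t)) = (b, t))
    (b : Y) (t : ℝ) (ht : t ∈ Ico (0:ℝ) 1) (h1 : t ∉ arcT1 N) :
    c (ΦB (b, t), T2map N ΦA ΦB g iA iB (ΦB (b, t)), T3map N ΦA ΦB g iA iB (ΦB (b, t))) ≤
      ENNReal.ofReal (kap ΦA ΦB g u (b, arcD N t + -(((mInt N g b : ℤ) : ℝ) / N))) +
        ENNReal.ofReal ε := by
  have hNr : (0:ℝ) < N := by exact_mod_cast hN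
  rw [T2map_B2 hinvB h.disj b t ht h1, T3map_B2 hinvB h.disj b t ht h1, swap13 h,
    ← contact_kap h b (arcD N t + -(((mInt N g b : ℤ) : ℝ) / N))]
  have a1 := Crest.Agent.Helper3.abs_arcD_sub_le N hN t
  have a3 := mInt_close N hN g b
  have e2 : 1 / (2 * (N:ℝ)) = 1 / (N:ℝ) / 2 := by ring
  have e3 : 3 / (N:ℝ) = 3 * (1 / (N:ℝ)) := by ring
  have hpos : 0 < 1 / (N:ℝ) := by positivity
  rw [abs_le] at a1 a3
  refine hcont b (arcD N t + -(((mInt N g b : ℤ) : ℝ) / N)) _ _ ?_ ?_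
  · rw [abs_le, e2]; push_cast; rw [neg_div]; constructor <;> linarith [a1.1, a1.2]
  · rw [abs_le]; constructor <;> linarith [a1.1, a1.2, a3.1, a3.2]

theorem cost_le (h : TwoShellHyp ν ΦA ΦB g c u) (hN : 0 < N) (hη : 3 / (N:ℝ) ≤ η)
    (hcont : ∀ b t t₁ t₂, |t₁ - t| ≤ η → |t₂ - (t + g b)| ≤ η →
      c (ΦA (b, t), ΦB (b, t₁), ΦB (b, t₂)) ≤
        c (ΦA (b, t), ΦB (b, t), ΦB (b, t + g b)) + ENNReal.ofReal ε)
    (hinvA : ∀ b t, t ∈ Ico (0:ℝ) 1 → iA (ΦA (b, t)) = (b, t))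
    (hinvB : ∀ b t, t ∈ Ico (0:ℝ) 1 → iB (ΦB (b, t)) = (b, t))
    (hT2 : Measurable (T2map N ΦA ΦB g iA iB)) (hT3 : Measurable (T3map N ΦA ΦB g iA iB)) :
    ∫⁻ x, c (x, T2map N ΦA ΦB g iA iB x, T3map N ΦA ΦB g iA iB x) ∂(tsμ ν ΦA ΦB) ≤
      tsVal ν ΦA ΦB u + ENNReal.ofReal ε := by
  have hm0 : Measurable (fun x => c (x, T2map N ΦA ΦB g iA iB x, T3map N ΦA ΦB g iA iB x)) :=
    h.measc.comp (measurable_id.prodMk (hT2.prodMk hT3))
  have hm1 : Measurable (fun p => c (ΦA p, T2map N ΦA ΦB g iA iB (ΦA p),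
      T3map N ΦA ΦB g iA iB (ΦA p))) := hm0.comp h.measA
  have hm2 : Measurable (fun p => c (ΦB p, T2map N ΦA ΦB g iA iB (ΦB p),
      T3map N ΦA ΦB g iA iB (ΦB p))) := hm0.comp h.measB
  have hK : Measurable (fun p => ENNReal.ofReal (kap ΦA ΦB g u p)) :=
    (measurable_kap h).ennreal_ofReal
  rw [Crest.Agent.Helper62.ts_lintegral ν ΦA ΦB h.measA h.measB _ hm0, ts_lintegral_fibre ν _ _ hm1 hm2]
  have hfib : ∀ b : Y,
      (∫⁻ t in Ico (0:ℝ) 1, c (ΦA (b, t), T2map N ΦA ΦB g iA iB (ΦA (b, t)),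
          T3map N ΦA ΦB g iA iB (ΦA (b, t)))) +
        2 * (∫⁻ t in Ico (0:ℝ) 1, c (ΦB (b, t), T2map N ΦA ΦB g iA iB (ΦB (b, t)),
          T3map N ΦA ΦB g iA iB (ΦB (b, t)))) ≤
      3 * (∫⁻ t in Ico (0:ℝ) 1, ENNReal.ofReal (kap ΦA ΦB g u (b, t))) +
        3 * ENNReal.ofReal ε := by
    intro b
    set F : ℝ → ℝ≥0∞ := fun t => ENNReal.ofReal (kap ΦA ΦB g u (b, t)) + ENNReal.ofReal ε
      with hFdef
    have hFm : Measurable F := (hK.comp measurable_prodMk_left).add measurable_const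
    have hFper : ∀ t, F (t + 1) = F t := fun t => by simp only [hFdef, kap_per h]
    have hF'm : Measurable (fun t => F (t + -(((mInt N g b : ℤ) : ℝ) / N))) :=
      hFm.comp (measurable_id.add_const _)
    have hF'per : ∀ t, F (t + 1 + -(((mInt N g b : ℤ) : ℝ) / N)) =
        F (t + -(((mInt N g b : ℤ) : ℝ) / N)) := fun t => by
      have : t + 1 + -(((mInt N g b : ℤ) : ℝ) / N) = t + -(((mInt N g b : ℤ) : ℝ) / N) + 1 := by
        ring
      rw [this, hFper]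
    have b1 : (∫⁻ t in Ico (0:ℝ) 1, c (ΦA (b, t), T2map N ΦA ΦB g iA iB (ΦA (b, t)),
          T3map N ΦA ΦB g iA iB (ΦA (b, t)))) ≤ ∫⁻ t in Ico (0:ℝ) 1, F t :=
      setLIntegral_mono' measurableSet_Ico
        (fun t ht => cost_A N iA iB η ε h hN hη hcont hinvA b t ht)
    have b2 := fibre_split_le (fun t => c (ΦB (b, t), T2map N ΦA ΦB g iA iB (ΦB (b, t)),
          T3map N ΦA ΦB g iA iB (ΦB (b, t))))
      (fun t => F (arcD N t)) (fun t => F (arcD N t + -(((mInt N g b : ℤ) : ℝ) / N)))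
      (arcT1 N) (Crest.Agent.Helper3.measurableSet_arcT1 N)
      (fun t ht h1 => cost_B1 N iA iB η ε h hN hη hcont hinvB b t ht h1)
      (fun t ht h1 => cost_B2 N iA iB η ε h hN hη hcont hinvB b t ht h1)
    have d1 := Crest.Agent.Helper3.arc_D1 N F hN hFm hFper
    have d2 := Crest.Agent.Helper3.arc_D2 N (fun t => F (t + -(((mInt N g b : ℤ) : ℝ) / N))) hN hF'm hF'per
    have d3 := Crest.Agent.Helper3.arc_shift F hFm hFper (-(((mInt N g b : ℤ) : ℝ) / N))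
    have hFint : (∫⁻ t in Ico (0:ℝ) 1, F t) =
        (∫⁻ t in Ico (0:ℝ) 1, ENNReal.ofReal (kap ΦA ΦB g u (b, t))) + ENNReal.ofReal ε := by
      rw [hFdef, lintegral_add_right _ measurable_const, setLIntegral_const, Real.volume_Ico]
      simp
    calc _ ≤ (∫⁻ t in Ico (0:ℝ) 1, F t) +
          2 * ((∫⁻ t in Ico (0:ℝ) 1 ∩ arcT1 N, F (arcD N t)) +
            (∫⁻ t in Ico (0:ℝ) 1 \ arcT1 N, F (arcD N t + -(((mInt N g b : ℤ) : ℝ) / N)))) :=
          add_le_add b1 (mul_le_mul' le_rfl b2)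
      _ = 3 * (∫⁻ t in Ico (0:ℝ) 1, F t) := by
          rw [mul_add, d1, d2, d3]; ring
      _ = _ := by rw [hFint, mul_add]
  calc _ ≤ ∫⁻ b, (3 * (∫⁻ t in Ico (0:ℝ) 1, ENNReal.ofReal (kap ΦA ΦB g u (b, t))) +
        3 * ENNReal.ofReal ε) ∂ν := lintegral_mono hfib
    _ = 3 * ∫⁻ p, ENNReal.ofReal (kap ΦA ΦB g u p) ∂(tsΛ ν) + ENNReal.ofReal ε := by
        rw [lintegral_add_right _ measurable_const, lintegral_const_mul' _ _ (by norm_num),
          lintegral_const, ← tsΛ_lintegral ν _ hK, h.mass]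
        congr 1
        rw [mul_comm (3:ℝ≥0∞), mul_assoc, one_div,
          ENNReal.mul_inv_cancel (by norm_num) (by norm_num), mul_one]
    _ = _ := by rw [three_lintegral_kap h]

end cost

/-! ### the statement of TS-4 -/

section main
variable {E Y : Type*} [MeasurableSpace E] [StandardBorelSpace E] [MeasurableSpace Y]
  [StandardBorelSpace Y] (ν : Measure Y) [IsFiniteMeasure ν] (ΦA ΦB : Y × ℝ → E) (g : Y → ℝ)
  (c : E × E × E → ℝ≥0∞) (u : E → ℝ)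

/-- (TS-4) Monge pairs approach `tsVal` (angle compress/stretch on `N` arcs). -/
theorem ts_approx (h : TwoShellHyp ν ΦA ΦB g c u) (ε : ℝ) (hε : 0 < ε) :
    ∃ T₂ T₃ : E → E, Measurable T₂ ∧ Measurable T₃ ∧
      (tsμ ν ΦA ΦB).map T₂ = tsμ ν ΦA ΦB ∧ (tsμ ν ΦA ΦB).map T₃ = tsμ ν ΦA ΦB ∧
      ∫⁻ x, c (x, T₂ x, T₃ x) ∂(tsμ ν ΦA ΦB) ≤ tsVal ν ΦA ΦB u + ENNReal.ofReal ε := by
  obtain ⟨iA, iB, hiA, hiB, hinvA, hinvB⟩ := Crest.Agent.Helper62.ts_inv ν ΦA ΦB g c u h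
  obtain ⟨hRA, hRB⟩ := Crest.Agent.Helper62.ts_meas_range ν ΦA ΦB g c u h
  obtain ⟨η, hη, hcont⟩ := h.cont ε hε
  obtain ⟨N, hNgt⟩ := exists_nat_gt (3 / η)
  have hNr : (0:ℝ) < N := lt_trans (by positivity) hNgt
  have hN : 0 < N := by exact_mod_cast hNr
  have h3N : 3 / (N:ℝ) ≤ η := by
    rw [div_le_iff₀ hNr]
    rw [div_lt_iff₀ hη] at hNgt
    linarith
  have hT2 : Measurable (T2map N ΦA ΦB g iA iB) :=
    measurable_T2map h.measA h.measB h.measg hiA hiB hRA hRB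
  have hT3 : Measurable (T3map N ΦA ΦB g iA iB) :=
    measurable_T3map h.measA h.measB h.measg hiA hiB hRA hRB
  refine ⟨T2map N ΦA ΦB g iA iB, T3map N ΦA ΦB g iA iB, hT2, hT3,
    map_eq_of_lintegral _ hT2 (T2map_push N iA iB h hN hinvA hinvB hT2),
    map_eq_of_lintegral _ hT3 (T3map_push N iA iB h hN hinvA hinvB hT3), ?_⟩
  exact cost_le N iA iB η ε h hN h3N hcont hinvA hinvB hT2 hT3

end main

end Crest.Agent.Helper35
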