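/-
Helper35 — S0175 project: the abstract two-shell theorem assembled from the landed packages
TS-1 (helper62), TS-2 (helper31), TS-3 (helper42), TS-4 (helper35).  The statement is
`Crest.Agent.Helper32.Spec.twoShell` verbatim and the proof is the one of the interface file
with the package theorems substituted; nothing here depends on the interface file.
-/
import Crest.Agent.Helper62.TwoShell.TS1
import Crest.Agent.Helper31.TwoShell.TS2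
import Crest.Agent.Helper42.TwoShell.TS3
import Crest.Agent.Helper35.TwoShell.TS4

set_option autoImplicit false
open MeasureTheory Set
open scoped ENNReal
open Crest.AnalysisR.OT
open Crest.Agent.Helper32

namespace Crest.Agent.Helper35

variable {E Y : Type*} [MeasurableSpace E] [StandardBorelSpace E] [MeasurableSpace Y]
  [StandardBorelSpace Y] (ν : Measure Y) [IsFiniteMeasure ν] (ΦA ΦB : Y × ℝ → E) (g : Y → ℝ)
  (c : E × E × E → ℝ≥0∞) (u : E → ℝ)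

/-- The abstract two-shell theorem (assembled from TS-1..4; no placeholder left). -/
theorem twoShell (h : TwoShellHyp ν ΦA ΦB g c u) :
    ∃ π₀ : Measure (E × E × E),
      IsCoupling₃ (tsμ ν ΦA ΦB) π₀ ∧ ∫⁻ p, c p ∂π₀ < ⊤ ∧
      (∀ π : Measure (E × E × E), IsCoupling₃ (tsμ ν ΦA ΦB) π →
        ∫⁻ p, c p ∂π₀ ≤ ∫⁻ p, c p ∂π) ∧
      (∀ T₂ T₃ : E → E, Measurable T₂ → Measurable T₃ →
        (tsμ ν ΦA ΦB).map T₂ = tsμ ν ΦA ΦB → (tsμ ν ΦA ΦB).map T₃ = tsμ ν ΦA ΦB →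
        ∫⁻ p, c p ∂π₀ < ∫⁻ x, c (x, T₂ x, T₃ x) ∂(tsμ ν ΦA ΦB)) ∧
      (∀ ε : ℝ≥0∞, 0 < ε → ∃ T₂ T₃ : E → E, Measurable T₂ ∧ Measurable T₃ ∧
        (tsμ ν ΦA ΦB).map T₂ = tsμ ν ΦA ΦB ∧ (tsμ ν ΦA ΦB).map T₃ = tsμ ν ΦA ΦB ∧
        ∫⁻ x, c (x, T₂ x, T₃ x) ∂(tsμ ν ΦA ΦB) < ∫⁻ p, c p ∂π₀ + ε) := by
  obtain ⟨π₀, hπ₀, hval⟩ := Crest.Agent.Helper31.ts_plan ν ΦA ΦB g c u h
  refine ⟨π₀, hπ₀, ?_, ?_, ?_, ?_⟩
  · rw [hval]; exact ENNReal.ofReal_lt_top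
  · intro π hπ; rw [hval]; exact Crest.Agent.Helper62.ts_lower ν ΦA ΦB g c u h π hπ
  · intro T₂ T₃ h₂ h₃ hT₂ hT₃; rw [hval]
    exact Crest.Agent.Helper42.ts_strict ν ΦA ΦB g c u h T₂ T₃ h₂ h₃ hT₂ hT₃
  · intro ε hε
    rw [hval]
    by_cases hε' : ε = ⊤
    · obtain ⟨T₂, T₃, h₂, h₃, hT₂, hT₃, hle⟩ := ts_approx ν ΦA ΦB g c u h 1 one_pos
      refine ⟨T₂, T₃, h₂, h₃, hT₂, hT₃, ?_⟩
      rw [hε']
      have hfin : tsVal ν ΦA ΦB u + ENNReal.ofReal 1 < ⊤ :=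
        ENNReal.add_lt_top.2 ⟨ENNReal.ofReal_lt_top, ENNReal.ofReal_lt_top⟩
      calc _ ≤ tsVal ν ΦA ΦB u + ENNReal.ofReal 1 := hle
        _ < ⊤ := hfin
        _ = tsVal ν ΦA ΦB u + ⊤ := by simp
    · have hpos : 0 < ε.toReal / 2 := by
        have := ENNReal.toReal_pos hε.ne' hε'
        linarith
      obtain ⟨T₂, T₃, h₂, h₃, hT₂, hT₃, hle⟩ := ts_approx ν ΦA ΦB g c u h (ε.toReal / 2) hpos
      refine ⟨T₂, T₃, h₂, h₃, hT₂, hT₃, lt_of_le_of_lt hle ?_⟩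
      have hfin : tsVal ν ΦA ΦB u ≠ ⊤ := ENNReal.ofReal_ne_top
      refine (ENNReal.add_lt_add_iff_left hfin).2 ?_
      calc ENNReal.ofReal (ε.toReal / 2) < ENNReal.ofReal ε.toReal := by
            apply (ENNReal.ofReal_lt_ofReal_iff (by linarith)).2; linarith
        _ = ε := ENNReal.ofReal_toReal hε'

end Crest.Agent.Helper35
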